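import Vale.Agent.P032.S5.H12.Inn
import Vale.Agent.P032.S5.H394.Ends

/-!
# P032: germs of arcs at the ends, automatic ends, (LP1) and (LP3)
-/

open Set Filter Topology Metric

noncomputable section

namespace Vale.Agent.P032.Six

variable {k : ℕ} {U : Fin k → Set ℂ} {T : ℂ → Set (Fin k)}

/-- the half branch of `S(z)` at `v` with sign `o` is inside `S(w)` -/
theorem half_in890 {z v w : ℂ} (hw : dist w v = 1) {o : ℝ} (hs : 0 < o * cr (z - v) (w - v)) :
    ∀ᶠ t : ℝ in 𝓝[>] 0, dist (z + (v - z) * cis (-(o * t))) w < 1 := by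
  have h1 := branch_in (z := v) (V := 2 * v - z) (g := w) hw (τ := -o) (by
    have e : cr (2 * v - z - v) (w - v) = -cr (z - v) (w - v) := by
      unfold cr; simp; ring
    rw [e]; linarith)
  filter_upwards [h1] with t ht
  have e : 2 * v - (2 * v - z) + (2 * v - z - v) * cis (-o * t) =
      z + (v - z) * cis (-(o * t)) := by
    rw [show -o * t = -(o * t) by ring]; ring
  rwa [e] at ht

/-- the half branch of `S(z)` at `v` with sign `o` is outside `S(w)` -/
theorem half_out890 {z v w : ℂ} (hw : dist w v = 1) {o : ℝ} (hs : o * cr (z - v) (w - v) < 0) :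
    ∀ᶠ t : ℝ in 𝓝[>] 0, 1 < dist (z + (v - z) * cis (-(o * t))) w := by
  have h1 := branch_out (z := v) (V := 2 * v - z) (g := w) hw (τ := -o) (by
    have e : cr (2 * v - z - v) (w - v) = -cr (z - v) (w - v) := by
      unfold cr; simp; ring
    rw [e]; linarith)
  filter_upwards [h1] with t ht
  have e : 2 * v - (2 * v - z) + (2 * v - z - v) * cis (-o * t) =
      z + (v - z) * cis (-(o * t)) := by
    rw [show -o * t = -(o * t) by ring]; ring
  rwa [e] at ht

/-- a half branch of `S(z)` on which `e` is absent is an exact arc -/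
theorem Irr.half890 (h : Irr U T) {z v : ℂ} {a b e : Fin k} {o : ℝ} (hvz : dist v z = 1)
    (hT : T v ⊆ {e, a, b}) (ha : a ∈ T z) (hb : b ∈ T z)
    (he : ∀ᶠ t : ℝ in 𝓝[>] 0, e ∉ Pal U (z + (v - z) * cis (-(o * t)))) :
    ∀ᶠ t : ℝ in 𝓝[>] 0, T (z + (v - z) * cis (-(o * t))) = {a, b} := by
  filter_upwards [he, (tendsto_rot z v o).eventually (h.nhd v)] with t h1 h2
  set y := z + (v - z) * cis (-(o * t)) with hy
  have hyz : dist y z = 1 := dist_rot hvz _
  have hsub : T y ⊆ {a, b} := by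
    intro i hi
    rcases hT (h2 hi) with rfl | h3
    · exact absurd (h.sub _ hi) h1
    · exact h3
  have haU : y ∉ U a := h.mx.notMem (h.sub z ha) hyz
  have hbU : y ∉ U b := h.mx.notMem (h.sub z hb) hyz
  have hat : a ∈ T y := by
    by_contra hcon
    refine hbU (h.mem_of_single fun i hi => ?_)
    rcases hsub hi with rfl | h3
    · exact absurd hi hcon
    · exact h3
  have hbt : b ∈ T y := by
    by_contra hcon
    refine haU (h.mem_of_single fun i hi => ?_)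
    rcases hsub hi with rfl | h3
    · rfl
    · rw [mem_singleton_iff] at h3
      subst h3
      exact absurd hi hcon
  refine Subset.antisymm hsub ?_
  rintro i (rfl | hi)
  · exact hat
  · rw [mem_singleton_iff] at hi
    subst hi
    exact hbt

/-- one of the two half branches is on the side on which `e` is absent -/
theorem exists_half890 {z v w : ℂ} {e x : Fin k} (hs : Sd U w v e x ∨ Sd U w v x e)
    (hwv : dist w v = 1) (hcr : cr (z - v) (w - v) ≠ 0) :
    ∃ o : ℝ, (o = 1 ∨ o = -1) ∧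
      ∀ᶠ t : ℝ in 𝓝[>] 0, e ∉ Pal U (z + (v - z) * cis (-(o * t))) := by
  rcases hs with hs | hs
  · -- absent outside
    obtain ⟨o, ho, ho2⟩ : ∃ o : ℝ, (o = 1 ∨ o = -1) ∧ o * cr (z - v) (w - v) < 0 := by
      rcases lt_or_gt_of_ne hcr with h1 | h1
      · exact ⟨1, Or.inl rfl, by linarith⟩
      · exact ⟨-1, Or.inr rfl, by linarith⟩
    refine ⟨o, ho, ?_⟩
    filter_upwards [half_out890 hwv ho2, (tendsto_rot z v o).eventually hs] with t h1 h2
    exact h2.1 h1
  · obtain ⟨o, ho, ho2⟩ : ∃ o : ℝ, (o = 1 ∨ o = -1) ∧ 0 < o * cr (z - v) (w - v) := by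
      rcases lt_or_gt_of_ne hcr with h1 | h1
      · exact ⟨-1, Or.inr rfl, by linarith⟩
      · exact ⟨1, Or.inl rfl, by linarith⟩
    refine ⟨o, ho, ?_⟩
    filter_upwards [half_in890 hwv ho2, (tendsto_rot z v o).eventually hs] with t h1 h2
    exact h2.2 h1

/-- **An exact arc of `S(z)` starts at `v`**, from the sides of a second circle through `v` -/
theorem Irr.oend890 (h : Irr U T) {z v w : ℂ} {a b e x : Fin k} (hvz : dist v z = 1)
    (h4 : (T z).ncard = 4) (hT : T v = {e, a, b}) (hea : e ≠ a) (heb : e ≠ b) (hab : a ≠ b)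
    (hP : T z ∩ T v = {a, b}) (hs : Sd U w v e x ∨ Sd U w v x e) (hwv : dist w v = 1)
    (hcr : cr (z - v) (w - v) ≠ 0) : ∃ o, OEnd T z v o := by
  obtain ⟨o, ho, he⟩ := exists_half890 (z := z) hs hwv hcr
  have ha : a ∈ T z := by
    have : a ∈ T z ∩ T v := by rw [hP]; simp
    exact this.1
  have hb : b ∈ T z := by
    have : b ∈ T z ∩ T v := by rw [hP]; simp
    exact this.1
  obtain ⟨ε, hε, harc⟩ := mem_nhdsGT_iff_exists_Ioo_subset.1 (h.half890 hvz hT.subset ha hb he)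
  refine ⟨o, ho, hvz, h4, ?_, ?_, ε, hε, fun t ht => ?_⟩
  · rw [hT, Set.ncard_insert_of_notMem (by simp [hea, heb]) (Set.toFinite _), Set.ncard_pair hab]
  · rw [hP, Set.ncard_pair hab]
  · rw [hP]; exact harc ht

theorem DPt.card890 {z : ℂ} {a b c d : Fin k} (h : DPt T z a b c d) : (T z).ncard = 4 := by
  rw [h.pal, Set.ncard_insert_of_notMem (by simp [h.ab, h.ac, h.ad]) (Set.toFinite _),
    Set.ncard_insert_of_notMem (by simp [h.bc, h.bd]) (Set.toFinite _), Set.ncard_pair h.cd]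

/-- **Both circles of a rhombus have exact arcs starting at the vertex.** -/
theorem Irr.vertex890 (h : Irr U T) {z w m : ℂ} {a b c d e f y : Fin k} (hz : DPt T z a b c d)
    (hw : DPt T w e a f y) (hmz : dist m z = 1) (hmw : dist m w = 1)
    (hcr : cr (z - m) (w - m) ≠ 0) (hT : T m = {e, a, b}) (heb : e ≠ b) (hez : e ∉ T z)
    (hbw : b ∉ T w) : (∃ o, OEnd T z m o) ∧ ∃ o, OEnd T w m o := by
  have hPz : T z ∩ T m = {a, b} := by
    rw [hT]
    ext i
    simp only [mem_inter_iff, mem_insert_iff, mem_singleton_iff]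
    constructor
    · rintro ⟨h1, rfl | h2 | h2⟩
      · exact absurd h1 hez
      · exact Or.inl h2
      · exact Or.inr h2
    · rintro (rfl | rfl)
      · exact ⟨by rw [hz.pal]; simp, by simp⟩
      · exact ⟨by rw [hz.pal]; simp, by simp⟩
  have hPw : T w ∩ T m = {e, a} := by
    rw [hT]
    ext i
    simp only [mem_inter_iff, mem_insert_iff, mem_singleton_iff]
    constructor
    · rintro ⟨h1, h2 | h2 | rfl⟩
      · exact Or.inl h2
      · exact Or.inr h2
      · exact absurd h1 hbw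
    · rintro (rfl | rfl)
      · exact ⟨by rw [hw.pal]; simp, by simp⟩
      · exact ⟨by rw [hw.pal]; simp, by simp⟩
  have hcr' : cr (w - m) (z - m) ≠ 0 := by
    intro h1; apply hcr; unfold cr at h1 ⊢; linarith
  refine ⟨h.oend890 hmz hz.card890 hT hw.ab heb hz.ab hPz (h.sides hw hmw)
    (by rw [dist_comm]; exact hmw) hcr, ?_⟩
  refine h.oend890 (a := e) (b := a) (e := b) (x := a) hmw hw.card890 ?_ heb.symm hz.ab.symm hw.ab
    hPw ?_ (by rw [dist_comm]; exact hmz) hcr'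
  · rw [hT]; ext i; simp only [mem_insert_iff, mem_singleton_iff]; tauto
  · exact (h.sides hz hmz).symm

/-- **(LP1)** -/
theorem Irr.lp1_890 (h : Irr U T) {z w v : ℂ} {o : ℝ} {i j : Fin k} (hv : OEnd T z v o)
    (hwv : dist w v = 1) (hs : Sd U w v i j) (hcr : cr (z - v) (w - v) ≠ 0) (hi : i ∈ T v)
    (hj : j ∈ T v) (hx : i ∈ T z ∨ j ∈ T z) : 0 < o * cr (z - v) (w - v) ↔ i ∈ T z := by
  obtain ⟨ho, hvz, -, -, -, ε, hε, harc⟩ := hv
  have hev : ∀ᶠ t : ℝ in 𝓝[>] 0, t ∈ Ioo 0 ε := Ioo_mem_nhdsGT hε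
  have hS := (tendsto_rot z v o).eventually hs
  constructor
  · intro h1
    rcases hx with h2 | h2
    · exact h2
    · exfalso
      obtain ⟨t, ⟨ht, h3⟩, h4⟩ := ((hev.and (half_in890 hwv h1)).and hS).exists
      refine h4.2 h3 (h.sub _ ?_)
      rw [harc t ht]
      exact ⟨h2, hj⟩
  · intro h1
    by_contra h2
    have h3 : o * cr (z - v) (w - v) < 0 := by
      refine lt_of_le_of_ne (not_lt.1 h2) (mul_ne_zero ?_ hcr)
      rcases ho with rfl | rfl <;> norm_num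
    obtain ⟨t, ⟨ht, h4⟩, h5⟩ := ((hev.and (half_out890 hwv h3)).and hS).exists
    refine h5.1 h4 (h.sub _ ?_)
    rw [harc t ht]
    exact ⟨h1, hi⟩

/-- two arcs at `v` with palettes covering both colours of `z` at `v` are not on the same side of
`S(z)` -/
theorem Irr.lp3_side890 (h : Irr U T) {z w c v : ℂ} {ow oc : ℝ} {i j : Fin k}
    (hw : OEnd T w v ow) (hc : OEnd T c v oc) (hz : dist z v = 1) (hs : Sd U z v i j)
    (hi : i ∈ T w ∩ T v ∨ i ∈ T c ∩ T v) (hj : j ∈ T w ∩ T v ∨ j ∈ T c ∩ T v) :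
    oc * cr (c - v) (z - v) * (ow * cr (w - v) (z - v)) ≤ 0 := by
  obtain ⟨-, -, -, -, -, ε, hε, harc⟩ := hw
  obtain ⟨-, -, -, -, -, ε', hε', harc'⟩ := hc
  have hev : ∀ᶠ t : ℝ in 𝓝[>] 0, t ∈ Ioo 0 ε := Ioo_mem_nhdsGT hε
  have hev' : ∀ᶠ t : ℝ in 𝓝[>] 0, t ∈ Ioo 0 ε' := Ioo_mem_nhdsGT hε'
  by_contra hcon
  rw [not_le] at hcon
  rcases mul_pos_iff.1 hcon with ⟨h1, h2⟩ | ⟨h1, h2⟩
  · rcases hj with h3 | h3
    · obtain ⟨t, ht⟩ := ((hev.and (half_in890 hz h2)).and
        ((tendsto_rot w v ow).eventually hs)).exists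
      refine ht.2.2 ht.1.2 (h.sub _ ?_)
      rw [harc t ht.1.1]; exact h3
    · obtain ⟨t, ht⟩ := ((hev'.and (half_in890 hz h1)).and
        ((tendsto_rot c v oc).eventually hs)).exists
      refine ht.2.2 ht.1.2 (h.sub _ ?_)
      rw [harc' t ht.1.1]; exact h3
  · rcases hi with h3 | h3
    · obtain ⟨t, ht⟩ := ((hev.and (half_out890 hz h2)).and
        ((tendsto_rot w v ow).eventually hs)).exists
      refine ht.2.1 ht.1.2 (h.sub _ ?_)
      rw [harc t ht.1.1]; exact h3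
    · obtain ⟨t, ht⟩ := ((hev'.and (half_out890 hz h1)).and
        ((tendsto_rot c v oc).eventually hs)).exists
      refine ht.2.1 ht.1.2 (h.sub _ ?_)
      rw [harc' t ht.1.1]; exact h3

/-- the algebra of (LP3) -/
theorem lp3_alg890 {G H C : ℂ} (hGH : cr G H ≠ 0) (h1 : cr C G * cr H G ≤ 0)
    (h2 : cr C H * cr G H ≤ 0) :
    ∃ a b : ℝ, 0 ≤ a ∧ 0 ≤ b ∧ C + (a : ℂ) * G + (b : ℂ) * H = 0 := by
  have hpos : 0 < cr G H ^ 2 := by positivity
  have e1 : cr H G = -cr G H := by unfold cr; ring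
  refine ⟨-(cr C H * cr G H) / cr G H ^ 2, -(cr C G * cr H G) / cr G H ^ 2, ?_, ?_, ?_⟩
  · exact div_nonneg (by linarith) hpos.le
  · exact div_nonneg (by linarith) hpos.le
  · have e2 : -(cr C H * cr G H) / cr G H ^ 2 = -cr C H / cr G H := by field_simp
    have e3 : -(cr C G * cr H G) / cr G H ^ 2 = cr C G / cr G H := by
      rw [e1]; field_simp
    rw [e2, e3]
    apply Complex.ext
    · simp only [Complex.add_re, Complex.mul_re, Complex.ofReal_re, Complex.ofReal_im, zero_mul,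
        sub_zero, Complex.zero_re]
      field_simp
      unfold cr
      ring
    · simp only [Complex.add_im, Complex.mul_im, Complex.ofReal_re, Complex.ofReal_im, zero_mul,
        add_zero, Complex.zero_im]
      field_simp
      unfold cr
      ring

/-- two different pairs in a set of three colours cover it -/
theorem pairs_cover890 {X P Q : Set (Fin k)} (hX : X.ncard = 3) (hP : P ⊆ X) (hQ : Q ⊆ X)
    (hP2 : P.ncard = 2) (hQ2 : Q.ncard = 2) (hne : P ≠ Q) {i : Fin k} (hi : i ∈ X) :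
    i ∈ P ∨ i ∈ Q := by
  by_contra hcon
  push Not at hcon
  have h1 : (X \ {i}).ncard = 2 := by
    have := Set.ncard_sdiff_singleton_add_one hi (Set.toFinite _)
    omega
  have h2 : P = X \ {i} := Set.eq_of_subset_of_ncard_le
    (fun j hj => ⟨hP hj, fun h3 => hcon.1 (by rw [mem_singleton_iff] at h3; rwa [← h3])⟩)
    (by rw [h1, hP2]) (Set.toFinite _)
  have h3 : Q = X \ {i} := Set.eq_of_subset_of_ncard_le
    (fun j hj => ⟨hQ hj, fun h3 => hcon.2 (by rw [mem_singleton_iff] at h3; rwa [← h3])⟩)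
    (by rw [h1, hQ2]) (Set.toFinite _)
  exact hne (h2.trans h3.symm)

/-- **(LP3)** -/
theorem Irr.lp3_890 (h : Irr U T) {z w c v : ℂ} {oz ow oc : ℝ} (hz : OEnd T z v oz)
    (hw : OEnd T w v ow) (hc : OEnd T c v oc) (hcr : cr (z - v) (w - v) ≠ 0) {i j i' j' : Fin k}
    (hsz : Sd U z v i j) (hij : T z ∩ T v = {i, j}) (hsw : Sd U w v i' j')
    (hij' : T w ∩ T v = {i', j'}) (hzc : T z ∩ T v ≠ T c ∩ T v)
    (hwc : T w ∩ T v ≠ T c ∩ T v) :
    ∃ a b : ℝ, 0 ≤ a ∧ 0 ≤ b ∧ ((oc : ℝ) : ℂ) * (c - v) + (a : ℂ) * (((oz : ℝ) : ℂ) * (z - v)) +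
      (b : ℂ) * (((ow : ℝ) : ℂ) * (w - v)) = 0 := by
  have hX : (T v).ncard = 3 := hz.2.2.2.1
  have hz2 : (T z ∩ T v).ncard = 2 := hz.2.2.2.2.1
  have hw2 : (T w ∩ T v).ncard = 2 := hw.2.2.2.2.1
  have hc2 : (T c ∩ T v).ncard = 2 := hc.2.2.2.2.1
  have dz : dist z v = 1 := by rw [dist_comm]; exact hz.2.1
  have dw : dist w v = 1 := by rw [dist_comm]; exact hw.2.1
  have mi : i ∈ T v := by
    have : i ∈ T z ∩ T v := by rw [hij]; simp
    exact this.2
  have mj : j ∈ T v := by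
    have : j ∈ T z ∩ T v := by rw [hij]; simp
    exact this.2
  have mi' : i' ∈ T v := by
    have : i' ∈ T w ∩ T v := by rw [hij']; simp
    exact this.2
  have mj' : j' ∈ T v := by
    have : j' ∈ T w ∩ T v := by rw [hij']; simp
    exact this.2
  have s1 := h.lp3_side890 hw hc dz hsz
    (pairs_cover890 hX inter_subset_right inter_subset_right hw2 hc2 hwc mi)
    (pairs_cover890 hX inter_subset_right inter_subset_right hw2 hc2 hwc mj)
  have s2 := h.lp3_side890 hz hc dw hsw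
    (pairs_cover890 hX inter_subset_right inter_subset_right hz2 hc2 hzc mi')
    (pairs_cover890 hX inter_subset_right inter_subset_right hz2 hc2 hzc mj')
  have sq : ∀ o : ℝ, (o = 1 ∨ o = -1) → o * o = 1 := by
    rintro o (rfl | rfl) <;> norm_num
  have qz := sq oz hz.1
  have qw := sq ow hw.1
  have crl : ∀ (o : ℝ) (x y : ℂ), cr ((o : ℂ) * x) y = o * cr x y := by
    intro o x y; unfold cr; simp; ring
  have crr : ∀ (o : ℝ) (x y : ℂ), cr x ((o : ℂ) * y) = o * cr x y := by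
    intro o x y; unfold cr; simp; ring
  have hnz : oz ≠ 0 := fun h1 => by rw [h1] at qz; norm_num at qz
  have hnw : ow ≠ 0 := fun h1 => by rw [h1] at qw; norm_num at qw
  refine lp3_alg890 (G := (oz : ℂ) * (z - v)) (H := (ow : ℂ) * (w - v)) (C := (oc : ℂ) * (c - v))
    ?_ ?_ ?_
  · rw [crl, crr]
    exact mul_ne_zero hnz (mul_ne_zero hnw hcr)
  · simp only [crl, crr]
    refine le_trans (le_of_eq ?_) s1
    linear_combination (oc * cr (c - v) (z - v) * (ow * cr (w - v) (z - v))) * qz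
  · simp only [crl, crr]
    refine le_trans (le_of_eq ?_) s2
    linear_combination (oc * cr (c - v) (w - v) * (oz * cr (z - v) (w - v))) * qw

/-! ### automatic ends -/

section auto

variable {U : Fin 6 → Set ℂ} {T : ℂ → Set (Fin 6)}

theorem Acc.arc890 {z u : ℂ} {P : Set (Fin 6)} (h : Acc T z P u) : ∃ p, Arc T z p P := by
  obtain ⟨y, -, hy⟩ := h univ univ_mem
  exact ⟨y, hy⟩

/-- four colours at the second centre of a rhombus -/
theorem Irr.four890 (h : Irr U T) {m q w : ℂ} (hm3 : (T m).ncard = 3) (hq3 : (T q).ncard = 3)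
    (hq : T q = (T m)ᶜ) (hne : m ≠ q) (g1 : dist w m = 1) (g2 : dist w q = 1)
    (g3 : m + q ≠ 2 * w) (hw4 : (T w).ncard ≤ 4) : (T w).ncard = 4 := by
  have hcov : ∀ i, i ∈ T m ∨ i ∈ T q := fun i => by rw [hq]; exact em _
  have hcov' : ∀ i, i ∈ T q ∨ i ∈ T m := fun i => (hcov i).symm
  have g3' : q + m ≠ 2 * w := by rw [add_comm]; exact g3
  obtain ⟨s1, hs1, hs1u, -⟩ := h.five hq3.le hcov hne g1 g2 g3 0
  obtain ⟨s2, hs2, hs2u, hs12⟩ := h.five hq3.le hcov hne g1 g2 g3 s1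
  obtain ⟨t1, ht1, ht1u, -⟩ := h.five hm3.le hcov' hne.symm g2 g1 g3' 0
  obtain ⟨t2, ht2, ht2u, ht12⟩ := h.five hm3.le hcov' hne.symm g2 g1 g3' t1
  have hd : ∀ {s t : Fin 6}, s ∈ T m → t ∈ T q → s ≠ t := by
    rintro s t hs ht rfl
    rw [hq] at ht
    exact ht hs
  have hs : ({s1, s2, t1, t2} : Set (Fin 6)) ⊆ T w := by
    rintro i (rfl | rfl | rfl | rfl) <;> assumption
  have h5 := Set.ncard_le_ncard hs (Set.toFinite _)
  rw [Set.ncard_insert_of_notMem (by simp [hs12.symm, hd hs1u ht1u, hd hs1u ht2u])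
    (Set.toFinite _), Set.ncard_insert_of_notMem (by simp [hd hs2u ht1u, hd hs2u ht2u])
    (Set.toFinite _), Set.ncard_pair ht12.symm] at h5
  omega

/-- the ends at a rhombus -/
def Rh890 (T : ℂ → Set (Fin 6)) (z w m q : ℂ) : Prop :=
  (∃ o, OEnd T z m o) ∧ (∃ o, OEnd T z q o) ∧ (∃ o, OEnd T w m o) ∧
    (∃ o, OEnd T w q o) ∧ (∃ p, Arc T w p (T w ∩ T m)) ∧
    (∃ p, Arc T w p (T w \ T m)) ∧ T w ∩ T m ≠ T z ∩ T m ∧ T w ∩ T q ≠ T z ∩ T q

theorem Irr.core890 (h : Irr U T) {z w m q : ℂ} {e x x' f y y' : Fin 6}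
    (hzD : DPt T z x x' y y') (hTm : T m = {e, x, x'}) (hTq : T q = {f, y, y'})
    (hq : T q = (T m)ᶜ) (k1 : T w ∩ T m = {e, x}) (k2 : x' ∉ T w) (k3 : Acc T w {e, x} m)
    (k4 : T w ∩ T q = {f, y}) (k5 : y' ∉ T w) (k6 : Acc T w {f, y} q) (hex : e ≠ x)
    (hex' : e ≠ x') (hfy : f ≠ y) (hfy' : f ≠ y') (hmz : dist m z = 1) (hqz : dist q z = 1)
    (hmw : dist m w = 1) (hqw : dist q w = 1) (hcr : cr (z - m) (w - m) ≠ 0)
    (hcrq : cr (z - q) (w - q) ≠ 0) (hez : e ∉ T z) (hfz : f ∉ T z) : Rh890 T z w m q := by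
  have mem : ∀ {i : Fin 6}, i ∈ T m → i ∈ T q → False := fun h1 h2 => by
    rw [hq] at h2; exact h2 h1
  have hdiff : T w \ T m = {f, y} := by
    rw [← k4, hq]; rfl
  have hTw : T w = {e, x, f, y} := by
    rw [← Set.inter_union_sdiff (T w) (T m), k1, hdiff]
    ext i; simp only [mem_union, mem_insert_iff, mem_singleton_iff]; tauto
  have mx : x ∈ T m := by rw [hTm]; simp
  have me : e ∈ T m := by rw [hTm]; simp
  have my : y ∈ T q := by rw [hTq]; simp
  have mf : f ∈ T q := by rw [hTq]; simp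
  have hwD : DPt T w e x f y := ⟨hTw, fun h1 => mem me (h1 ▸ mf), fun h1 => mem me (h1 ▸ my),
    fun h1 => mem mx (h1 ▸ mf), fun h1 => mem mx (h1 ▸ my), hex, hfy, k3.arc890, k6.arc890⟩
  have v1 := h.vertex890 hzD hwD hmz hmw hcr hTm hex' hez k2
  have v2 := h.vertex890 hzD.swap hwD.swap hqz hqw hcrq hTq hfy' hfz k5
  refine ⟨v1.1, v2.1, v1.2, v2.2, ?_, ?_, ?_, ?_⟩
  · rw [k1]; exact k3.arc890
  · rw [hdiff]; exact k6.arc890
  · intro h1
    have h2 : e ∈ T z ∩ T m := by rw [← h1, k1]; simp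
    exact hez h2.1
  · intro h1
    have h2 : f ∈ T z ∩ T q := by rw [← h1, k4]; simp
    exact hfz h2.1

/-- the colours at a point `m` of `S(z)` and a point `q` with the complementary palette -/
theorem colours890 {z m q : ℂ} (hm3 : (T m).ncard = 3)
    (hP : (T z ∩ T m).ncard = 2) (hC2 : (T z \ T m).ncard = 2) (hq : T q = (T m)ᶜ) :
    ∃ a b c d e f : Fin 6, [a, b, c, d, e, f].Nodup ∧ T z ∩ T m = {a, b} ∧ T z \ T m = {c, d} ∧
      T m = {e, a, b} ∧ T q = {f, c, d} ∧ T z = {a, b, c, d} ∧ e ∉ T z ∧ f ∉ T z := by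
  obtain ⟨a, b, hab, hPab⟩ := Set.ncard_eq_two.1 hP
  obtain ⟨c, d, hcd, hCcd⟩ := Set.ncard_eq_two.1 hC2
  have hq3 : (T q).ncard = 3 := by rw [hq]; exact ncard_compl_three hm3
  obtain ⟨e, he, hXe⟩ := exists_third hm3 (P := T z ∩ T m) inter_subset_right hP
  have hCq : T z \ T m ⊆ T q := by rw [hq]; exact fun i hi => hi.2
  obtain ⟨f, hf, hXf⟩ := exists_third hq3 (P := T z \ T m) hCq hC2
  rw [hPab] at he hXe
  rw [hCcd] at hf hXf
  have mem : ∀ {i : Fin 6}, i ∈ T m → i ∈ T q → False := fun h1 h2 => by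
    rw [hq] at h2; exact h2 h1
  have ma : a ∈ T z ∩ T m := by rw [hPab]; simp
  have mb : b ∈ T z ∩ T m := by rw [hPab]; simp
  have mc : c ∈ T z \ T m := by rw [hCcd]; simp
  have md : d ∈ T z \ T m := by rw [hCcd]; simp
  have me : e ∈ T m := by rw [hXe]; simp
  have mf : f ∈ T q := by rw [hXf]; simp
  have hea : e ≠ a := fun h1 => he (by rw [h1]; simp)
  have heb : e ≠ b := fun h1 => he (by rw [h1]; simp)
  have hfc : f ≠ c := fun h1 => hf (by rw [h1]; simp)
  have hfd : f ≠ d := fun h1 => hf (by rw [h1]; simp)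
  have hac : a ≠ c := fun h1 => mc.2 (h1 ▸ ma.2)
  have had : a ≠ d := fun h1 => md.2 (h1 ▸ ma.2)
  have hbc : b ≠ c := fun h1 => mc.2 (h1 ▸ mb.2)
  have hbd : b ≠ d := fun h1 => md.2 (h1 ▸ mb.2)
  have hec : e ≠ c := fun h1 => mc.2 (h1 ▸ me)
  have hed : e ≠ d := fun h1 => md.2 (h1 ▸ me)
  have haf : a ≠ f := fun h1 => mem ma.2 (h1 ▸ mf)
  have hbf : b ≠ f := fun h1 => mem mb.2 (h1 ▸ mf)
  have hef : e ≠ f := fun h1 => mem me (h1 ▸ mf)
  have hez : e ∉ T z := fun h1 => he (by rw [← hPab]; exact ⟨h1, me⟩)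
  have hfz : f ∉ T z := fun h1 => hf (by
    rw [← hCcd]; exact ⟨h1, fun h2 => mem h2 mf⟩)
  refine ⟨a, b, c, d, e, f, ?_, hPab, hCcd, hXe, hXf, ?_, hez, hfz⟩
  · simp [hab, hac, had, hbc, hbd, hcd, hea.symm, heb.symm, hec.symm, hed.symm, haf,
      hbf, hfc.symm, hfd.symm, hef]
  · rw [← Set.inter_union_sdiff (T z) (T m), hPab, hCcd]
    ext i; simp only [mem_union, mem_insert_iff, mem_singleton_iff]; tauto

/-- **(auto)** and the germs at the vertices of a rhombus: `m`, `q` on `S(z)` with complementary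
palettes, one exact arc of each of the two pairs on `S(z)`, and at most four colours at the second
centre `w = m + q - z`. -/
theorem Irr.auto890 (h : Irr U T) {z m q : ℂ} (h4 : (T z).ncard = 4) (hm3 : (T m).ncard = 3)
    (hP : (T z ∩ T m).ncard = 2) (hq : T q = (T m)ᶜ) (hmz : dist m z = 1) (hqz : dist q z = 1)
    (hA : ∃ p, Arc T z p (T z ∩ T m)) (hC : ∃ p, Arc T z p (T z \ T m))
    (hw4 : (T (m + q - z)).ncard ≤ 4) :
    m + q ≠ 2 * z ∧ (T (m + q - z)).ncard = 4 ∧ cr (z - m) (m + q - z - m) ≠ 0 ∧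
      Rh890 T z (m + q - z) m q := by
  have hC2 : (T z \ T m).ncard = 2 := by
    have := Set.ncard_inter_add_ncard_sdiff_eq_ncard (T z) (T m) (Set.toFinite _)
    omega
  obtain ⟨a, b, c, d, e, f, hnd, hPab, hCcd, hXe, hXf, hTz, hez, hfz⟩ :=
    colours890 hm3 hP hC2 hq
  have hnd' := hnd
  simp only [List.nodup_cons, List.mem_cons, List.not_mem_nil, or_false, not_or, List.nodup_nil,
    and_true, not_false_eq_true] at hnd
  obtain ⟨⟨hab, hac, had, hae, haf⟩, ⟨hbc, hbd, hbe, hbf⟩, ⟨hcd, hce, hcf⟩, ⟨hde, hdf⟩, hef⟩ := hnd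
  have hq3 : (T q).ncard = 3 := by rw [hq]; exact ncard_compl_three hm3
  have hzD : DPt T z a b c d := ⟨hTz, hac, had, hbc, hbd, hab, hcd, by rw [← hPab]; exact hA,
    by rw [← hCcd]; exact hC⟩
  have hcov : ∀ i, i ∈ T m ∨ i ∈ T q := fun i => by rw [hq]; exact em _
  have me : e ∈ T m := by rw [hXe]; simp
  have hne : m ≠ q := by
    rintro rfl
    have h1 := me
    rw [hq] at h1
    exact h1 me
  have hop : m + q ≠ 2 * z := by
    intro h1
    have e1 : 2 * z - m = q := by linear_combination -h1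
    exact h.anti hzD hmz (h.sub _ (by rw [hXe]; simp)) (h.sub _ (by rw [hXe]; simp))
      (by rw [e1]; exact h.sub _ (by rw [hXf]; simp))
      (by rw [e1]; exact h.sub _ (by rw [hXf]; simp))
  obtain ⟨g1, g2, g3, g4⟩ := Irr.rh_geo hmz hqz hne hop
  have hAm : Acc T z {a, b} m := h.rh_arc (u := m) (u' := q) (q := z) (P := {a, b}) (r := e)
    hq3.le hcov hne (by rw [dist_comm]; exact hmz) (by rw [dist_comm]; exact hqz) hop hXe
    (by simp [Ne.symm hae, Ne.symm hbe]) (by rw [Set.ncard_pair hab]) ⟨a, by simp⟩ hPab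
  have hPq : T z ∩ T q = {c, d} := by
    rw [← hCcd, hq]; rfl
  have hAq : Acc T z {c, d} q := h.rh_arc (u := q) (u' := m) (q := z) (P := {c, d}) (r := f)
    hm3.le (fun i => (hcov i).symm) hne.symm (by rw [dist_comm]; exact hqz)
    (by rw [dist_comm]; exact hmz) (by rw [add_comm]; exact hop) hXf
    (by simp [Ne.symm hcf, Ne.symm hdf]) (by rw [Set.ncard_pair hcd]) ⟨c, by simp⟩ hPq
  have hwcard := h.four890 hm3 hq3 hq hne g1 g2 g3 hw4
  have hcr : cr (z - m) (m + q - z - m) ≠ 0 := cr_ne_of (by rw [dist_comm]; exact hmz) g1 g4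
    (fun h1 => hne (by linear_combination -h1))
  have hcrq : cr (z - q) (m + q - z - q) ≠ 0 := cr_ne_of (by rw [dist_comm]; exact hqz) g2 g4
    (fun h1 => hne (by linear_combination h1))
  have hmw : dist m (m + q - z) = 1 := by rw [dist_comm]; exact g1
  have hqw : dist q (m + q - z) = 1 := by rw [dist_comm]; exact g2
  refine ⟨hop, hwcard, hcr, ?_⟩
  have key := h.rhombus hnd' hmz hqz hop hXe hXf hAm hAq hwcard
  have hXe' : T m = {e, b, a} := by rw [hXe, Set.pair_comm]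
  have hXf' : T q = {f, d, c} := by rw [hXf, Set.pair_comm]
  rcases key with ⟨⟨k1, k2, k3⟩ | ⟨k1, k2, k3⟩, ⟨k4, k5, k6⟩ | ⟨k4, k5, k6⟩⟩
  · exact h.core890 hzD hXe hXf hq k1 k2 k3 k4 k5 k6 (Ne.symm hae) (Ne.symm hbe) (Ne.symm hcf)
      (Ne.symm hdf) hmz hqz hmw hqw hcr hcrq hez hfz
  · exact h.core890 hzD.swap34 hXe hXf' hq k1 k2 k3 k4 k5 k6 (Ne.symm hae) (Ne.symm hbe)
      (Ne.symm hdf) (Ne.symm hcf) hmz hqz hmw hqw hcr hcrq hez hfz
  · exact h.core890 hzD.swap12 hXe' hXf hq k1 k2 k3 k4 k5 k6 (Ne.symm hbe) (Ne.symm hae)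
      (Ne.symm hcf) (Ne.symm hdf) hmz hqz hmw hqw hcr hcrq hez hfz
  · exact h.core890 hzD.swap12.swap34 hXe' hXf' hq k1 k2 k3 k4 k5 k6 (Ne.symm hbe)
      (Ne.symm hae) (Ne.symm hdf) (Ne.symm hcf) hmz hqz hmw hqw hcr hcrq hez hfz

end auto

end Vale.Agent.P032.Six
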